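import Mathlib

/-!
# Backup copy of the numeric leaf (M4) of the conditional closure theorem for S0076 (helper40)

Statement exactly as requested by helper77 (board #6709) from helper63.  Un-imported, conditional:
it is used by nothing unless the closure theorem is assembled.  Row 55 / S0076 is NOT proved.
-/

set_option autoImplicit false

namespace Crest.Agent.Helper40.S0076

private lemma exp_25_16_le : Real.exp ((25:ℝ)/16) ≤ 4.8 := by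
  have hs : Real.exp ((1:ℝ)/2) * Real.exp ((1:ℝ)/2) = Real.exp 1 := by
    rw [← Real.exp_add]; norm_num
  have he1 : Real.exp 1 < 2.7182818286 := Real.exp_one_lt_d9
  have hspos : 0 < Real.exp ((1:ℝ)/2) := Real.exp_pos _
  have hs165 : Real.exp ((1:ℝ)/2) ≤ 1.65 := by
    by_contra hcon
    have hcon' : (1.65:ℝ) < Real.exp ((1:ℝ)/2) := not_le.mp hcon
    nlinarith
  have h16 : Real.exp ((1:ℝ)/16) ≤ 16/15 := by
    have h := Real.add_one_le_exp (-((1:ℝ)/16))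
    have hmul : Real.exp ((1:ℝ)/16) * Real.exp (-((1:ℝ)/16)) = 1 := by
      rw [← Real.exp_add]; simp
    have hpos := Real.exp_pos ((1:ℝ)/16)
    nlinarith
  have hsplit : Real.exp ((25:ℝ)/16)
      = Real.exp ((1:ℝ)/2) * Real.exp ((1:ℝ)/2) * Real.exp ((1:ℝ)/2) * Real.exp ((1:ℝ)/16) := by
    rw [← Real.exp_add, ← Real.exp_add, ← Real.exp_add]; norm_num
  rw [hsplit]
  have h16pos := Real.exp_pos ((1:ℝ)/16)
  have hcube : Real.exp ((1:ℝ)/2) * Real.exp ((1:ℝ)/2) * Real.exp ((1:ℝ)/2) ≤ 1.65 * 1.65 * 1.65 := by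
    have h2 : Real.exp ((1:ℝ)/2) * Real.exp ((1:ℝ)/2) ≤ 1.65 * 1.65 :=
      mul_le_mul hs165 hs165 hspos.le (by norm_num)
    exact mul_le_mul h2 hs165 hspos.le (by norm_num)
  calc Real.exp ((1:ℝ)/2) * Real.exp ((1:ℝ)/2) * Real.exp ((1:ℝ)/2) * Real.exp ((1:ℝ)/16)
      ≤ (1.65 * 1.65 * 1.65) * (16/15) :=
        mul_le_mul hcube h16 h16pos.le (by norm_num)
    _ ≤ 4.8 := by norm_num

theorem closure_numeric (n v e : ℕ) (p : ℝ) (hp : 0 < p) (hnp : (n:ℝ) * p ≤ 1) (hvn : v ≤ n)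
    (hv : v ≤ 2 * e) (he : 1 ≤ e) :
    2 * Real.exp 1 * (4:ℝ)^(v - 1) * (v:ℝ) * ((25/16 : ℝ) * p)^e * (1 + (25/16:ℝ) * p)^(v^2)
        * Real.exp (2 * (n:ℝ) * ((1 + (25/16:ℝ) * p)^v - 1)) ≤ (Real.exp 45 * p)^e := by
  set q : ℝ := 25/16 * p with hq
  have hq0 : 0 < q := by positivity
  have hv0 : (0:ℝ) ≤ (v:ℝ) := Nat.cast_nonneg v
  have hn0 : (0:ℝ) ≤ (n:ℝ) := Nat.cast_nonneg n
  have hvR : (v:ℝ) ≤ (n:ℝ) := by exact_mod_cast hvn
  have hpv : p * (v:ℝ) ≤ 1 := by nlinarith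
  have hqv : q * (v:ℝ) ≤ 25/16 := by rw [hq]; nlinarith
  have hnq : (n:ℝ) * q ≤ 25/16 := by rw [hq]; nlinarith
  have h2e : (2:ℝ) ≤ Real.exp 1 := by
    have := Real.add_one_le_exp (1:ℝ); linarith
  have hexp2 : Real.exp 2 = Real.exp 1 * Real.exp 1 := by
    rw [← Real.exp_add]; norm_num
  have h1 : 2 * Real.exp 1 ≤ Real.exp 2 := by
    rw [hexp2]; nlinarith [Real.exp_pos 1]
  have h4 : (4:ℝ) ≤ Real.exp 2 := by
    rw [hexp2]; nlinarith [Real.exp_pos 1]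
  have hA : (4:ℝ)^(v-1) ≤ Real.exp (2 * (v:ℝ)) := by
    calc (4:ℝ)^(v-1) ≤ 4^v := pow_le_pow_right₀ (by norm_num) (Nat.sub_le v 1)
      _ ≤ (Real.exp 2)^v := pow_le_pow_left₀ (by norm_num) h4 v
      _ = Real.exp (2 * (v:ℝ)) := by rw [← Real.exp_nat_mul]; ring_nf
  have hB : (v:ℝ) ≤ Real.exp (v:ℝ) := by
    have := Real.add_one_le_exp (v:ℝ); linarith
  have hC : q^e ≤ Real.exp (e:ℝ) * p^e := by
    rw [hq, mul_pow]
    have h25 : ((25:ℝ)/16)^e ≤ (Real.exp 1)^e :=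
      pow_le_pow_left₀ (by norm_num) (by linarith) e
    have h25' : (Real.exp 1)^e = Real.exp (e:ℝ) := by
      rw [← Real.exp_nat_mul]; ring_nf
    rw [h25'] at h25
    exact mul_le_mul_of_nonneg_right h25 (by positivity)
  have h1q : 1 + q ≤ Real.exp q := by linarith [Real.add_one_le_exp q]
  have hD : (1 + q)^(v^2) ≤ Real.exp (25/16 * (v:ℝ)) := by
    calc (1+q)^(v^2) ≤ (Real.exp q)^(v^2) := pow_le_pow_left₀ (by positivity) h1q _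
      _ = Real.exp (q * (v:ℝ) * (v:ℝ)) := by
          rw [← Real.exp_nat_mul]; push_cast; ring_nf
      _ ≤ Real.exp (25/16 * (v:ℝ)) := by
          apply Real.exp_le_exp.mpr
          exact mul_le_mul_of_nonneg_right hqv hv0
  have hE1 : (1+q)^v ≤ Real.exp (q * (v:ℝ)) := by
    calc (1+q)^v ≤ (Real.exp q)^v := pow_le_pow_left₀ (by positivity) h1q _
      _ = Real.exp (q * (v:ℝ)) := by rw [← Real.exp_nat_mul]; ring_nf
  have hx0 : 0 ≤ q * (v:ℝ) := by positivity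
  have hE2 : Real.exp (q * (v:ℝ)) - 1 ≤ q * (v:ℝ) * 4.8 := by
    have h := Real.add_one_le_exp (-(q * (v:ℝ)))
    have hmul : Real.exp (q * (v:ℝ)) * Real.exp (-(q * (v:ℝ))) = 1 := by
      rw [← Real.exp_add]; simp
    have hpos := Real.exp_pos (q * (v:ℝ))
    have h' : Real.exp (q * (v:ℝ)) - 1 ≤ q * (v:ℝ) * Real.exp (q * (v:ℝ)) := by nlinarith
    have hmono : Real.exp (q * (v:ℝ)) ≤ 4.8 :=
      le_trans (Real.exp_le_exp.mpr hqv) exp_25_16_le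
    have : q * (v:ℝ) * Real.exp (q * (v:ℝ)) ≤ q * (v:ℝ) * 4.8 :=
      mul_le_mul_of_nonneg_left hmono hx0
    linarith
  have hE3 : 2 * (n:ℝ) * ((1+q)^v - 1) ≤ 15 * (v:ℝ) := by
    have h' : (1+q)^v - 1 ≤ q * (v:ℝ) * 4.8 := by linarith
    have h'' : 2 * (n:ℝ) * ((1+q)^v - 1) ≤ 2 * (n:ℝ) * (q * (v:ℝ) * 4.8) :=
      mul_le_mul_of_nonneg_left h' (by positivity)
    have h3 : (n:ℝ) * q * (v:ℝ) ≤ 25/16 * (v:ℝ) := mul_le_mul_of_nonneg_right hnq hv0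
    nlinarith
  have hF : Real.exp (2 * (n:ℝ) * ((1+q)^v - 1)) ≤ Real.exp (15 * (v:ℝ)) :=
    Real.exp_le_exp.mpr hE3
  -- assemble
  have hpe : (0:ℝ) ≤ p^e := by positivity
  have hLHS : 2 * Real.exp 1 * (4:ℝ)^(v - 1) * (v:ℝ) * q^e * (1 + q)^(v^2)
        * Real.exp (2 * (n:ℝ) * ((1 + q)^v - 1))
      ≤ Real.exp 2 * Real.exp (2 * (v:ℝ)) * Real.exp (v:ℝ) * (Real.exp (e:ℝ) * p^e)
        * Real.exp (25/16 * (v:ℝ)) * Real.exp (15 * (v:ℝ)) := by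
    gcongr
  have hsum : Real.exp 2 * Real.exp (2 * (v:ℝ)) * Real.exp (v:ℝ) * (Real.exp (e:ℝ) * p^e)
        * Real.exp (25/16 * (v:ℝ)) * Real.exp (15 * (v:ℝ))
      = Real.exp (2 + 2 * (v:ℝ) + (v:ℝ) + (e:ℝ) + 25/16 * (v:ℝ) + 15 * (v:ℝ)) * p^e := by
    rw [Real.exp_add, Real.exp_add, Real.exp_add, Real.exp_add, Real.exp_add]; ring
  have hveR : (v:ℝ) ≤ 2 * (e:ℝ) := by exact_mod_cast hv
  have heR : (1:ℝ) ≤ (e:ℝ) := by exact_mod_cast he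
  have hexpo : 2 + 2 * (v:ℝ) + (v:ℝ) + (e:ℝ) + 25/16 * (v:ℝ) + 15 * (v:ℝ) ≤ 45 * (e:ℝ) := by
    nlinarith
  have hRHS : (Real.exp 45 * p)^e = Real.exp (45 * (e:ℝ)) * p^e := by
    rw [mul_pow, ← Real.exp_nat_mul]; ring_nf
  rw [hRHS]
  calc 2 * Real.exp 1 * (4:ℝ)^(v - 1) * (v:ℝ) * q^e * (1 + q)^(v^2)
        * Real.exp (2 * (n:ℝ) * ((1 + q)^v - 1))
      ≤ Real.exp (2 + 2 * (v:ℝ) + (v:ℝ) + (e:ℝ) + 25/16 * (v:ℝ) + 15 * (v:ℝ)) * p^e := by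
        rw [← hsum]; exact hLHS
    _ ≤ Real.exp (45 * (e:ℝ)) * p^e :=
        mul_le_mul_of_nonneg_right (Real.exp_le_exp.mpr hexpo) hpe

end Crest.Agent.Helper40.S0076
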